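import Vale.Agent.Lib.P205.Warped

namespace Vale.Agent.Lib.P205

open scoped ContDiff
open MeasureTheory Real

/-- Derivative of `u(x) cos(om y) - v(x) sin(om y)`. -/
theorem hasFDerivAt_rot_re {u v : ℝ → ℝ} {u' v' : ℝ} (om : ℝ) (p : ℝ × ℝ)
    (hu : HasDerivAt u u' p.1) (hv : HasDerivAt v v' p.1) :
    HasFDerivAt (fun q : ℝ × ℝ => u q.1 * Real.cos (om * q.2) - v q.1 * Real.sin (om * q.2))
      ((u' * Real.cos (om * p.2) - v' * Real.sin (om * p.2)) • ContinuousLinearMap.fst ℝ ℝ ℝ +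
        (om * (-(u p.1 * Real.sin (om * p.2)) - v p.1 * Real.cos (om * p.2))) •
          ContinuousLinearMap.snd ℝ ℝ ℝ) p := by
  have hcos : HasDerivAt (fun y => Real.cos (om * y)) (-(Real.sin (om * p.2) * om)) p.2 := by
    have := ((hasDerivAt_id p.2).const_mul om).cos
    refine this.congr_deriv ?_
    simp only [id]
    ring
  have hsin : HasDerivAt (fun y => Real.sin (om * y)) (Real.cos (om * p.2) * om) p.2 := by
    have := ((hasDerivAt_id p.2).const_mul om).sin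
    refine this.congr_deriv ?_
    simp only [id]
    ring
  have d := (hasFDerivAt_mul_fst_snd p hu hcos).sub (hasFDerivAt_mul_fst_snd p hv hsin)
  refine d.congr_fderiv ?_
  ext <;> simp <;> ring

/-- Derivative of `v(x) cos(om y) + u(x) sin(om y)`. -/
theorem hasFDerivAt_rot_im {u v : ℝ → ℝ} {u' v' : ℝ} (om : ℝ) (p : ℝ × ℝ)
    (hu : HasDerivAt u u' p.1) (hv : HasDerivAt v v' p.1) :
    HasFDerivAt (fun q : ℝ × ℝ => v q.1 * Real.cos (om * q.2) + u q.1 * Real.sin (om * q.2))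
      ((v' * Real.cos (om * p.2) + u' * Real.sin (om * p.2)) • ContinuousLinearMap.fst ℝ ℝ ℝ +
        (om * (-(v p.1 * Real.sin (om * p.2)) + u p.1 * Real.cos (om * p.2))) •
          ContinuousLinearMap.snd ℝ ℝ ℝ) p := by
  have hcos : HasDerivAt (fun y => Real.cos (om * y)) (-(Real.sin (om * p.2) * om)) p.2 := by
    have := ((hasDerivAt_id p.2).const_mul om).cos
    refine this.congr_deriv ?_
    simp only [id]
    ring
  have hsin : HasDerivAt (fun y => Real.sin (om * y)) (Real.cos (om * p.2) * om) p.2 := by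
    have := ((hasDerivAt_id p.2).const_mul om).sin
    refine this.congr_deriv ?_
    simp only [id]
    ring
  have d := (hasFDerivAt_mul_fst_snd p hv hcos).add (hasFDerivAt_mul_fst_snd p hu hsin)
  refine d.congr_fderiv ?_
  ext <;> simp <;> ring

/-- A curve `(u1 + i v1, u2 + i v2)` in `C^2`, periodic in `x`, rotated by `exp(i om y)`:
the map `(x, y) ↦ exp(i om y) (u1 + i v1, u2 + i v2)(x)` into `R^4` induces the metric
`E dx^2 + 2 F dx dy + G dy^2` as soon as the curve has squared norm `G / om^2`, squared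
speed `E` and angular momentum `F / om`. -/
theorem immersion_of_curve (a b : ℝ) (hb : 0 < b) (m : ℕ) (E F G : ℝ → ℝ)
    (u₁ v₁ u₂ v₂ : ℝ → ℝ) (hu₁ : ContDiff ℝ ∞ u₁) (hv₁ : ContDiff ℝ ∞ v₁)
    (hu₂ : ContDiff ℝ ∞ u₂) (hv₂ : ContDiff ℝ ∞ v₂)
    (pu₁ : ∀ x, u₁ (x + a) = u₁ x) (pv₁ : ∀ x, v₁ (x + a) = v₁ x)
    (pu₂ : ∀ x, u₂ (x + a) = u₂ x) (pv₂ : ∀ x, v₂ (x + a) = v₂ x)
    (h1 : ∀ x, (2 * π * m / b) ^ 2 * (u₁ x ^ 2 + v₁ x ^ 2 + u₂ x ^ 2 + v₂ x ^ 2) = G x)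
    (h2 : ∀ x, (2 * π * m / b) * (u₁ x * deriv v₁ x - v₁ x * deriv u₁ x +
      u₂ x * deriv v₂ x - v₂ x * deriv u₂ x) = F x)
    (h3 : ∀ x, deriv u₁ x ^ 2 + deriv v₁ x ^ 2 + deriv u₂ x ^ 2 + deriv v₂ x ^ 2 = E x) :
    ∃ Ψ : ℝ × ℝ → EuclideanSpace ℝ (Fin 4), ContDiff ℝ ∞ Ψ ∧
      (∀ x y, Ψ (x + a, y) = Ψ (x, y)) ∧ (∀ x y, Ψ (x, y + b) = Ψ (x, y)) ∧
      ∀ p v w : ℝ × ℝ, inner ℝ (fderiv ℝ Ψ p v) (fderiv ℝ Ψ p w) =
        E p.1 * v.1 * w.1 + F p.1 * (v.1 * w.2 + v.2 * w.1) + G p.1 * v.2 * w.2 := by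
  set om : ℝ := 2 * π * m / b with hom
  set Ψ : ℝ × ℝ → EuclideanSpace ℝ (Fin 4) := fun q =>
    WithLp.toLp 2 ![u₁ q.1 * Real.cos (om * q.2) - v₁ q.1 * Real.sin (om * q.2),
      v₁ q.1 * Real.cos (om * q.2) + u₁ q.1 * Real.sin (om * q.2),
      u₂ q.1 * Real.cos (om * q.2) - v₂ q.1 * Real.sin (om * q.2),
      v₂ q.1 * Real.cos (om * q.2) + u₂ q.1 * Real.sin (om * q.2)] with hΨ
  have hΨsm : ContDiff ℝ ∞ Ψ := by
    rw [contDiff_euclidean]
    intro i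
    fin_cases i
    · change ContDiff ℝ ∞ fun q : ℝ × ℝ =>
        u₁ q.1 * Real.cos (om * q.2) - v₁ q.1 * Real.sin (om * q.2)
      fun_prop
    · change ContDiff ℝ ∞ fun q : ℝ × ℝ =>
        v₁ q.1 * Real.cos (om * q.2) + u₁ q.1 * Real.sin (om * q.2)
      fun_prop
    · change ContDiff ℝ ∞ fun q : ℝ × ℝ =>
        u₂ q.1 * Real.cos (om * q.2) - v₂ q.1 * Real.sin (om * q.2)
      fun_prop
    · change ContDiff ℝ ∞ fun q : ℝ × ℝ =>
        v₂ q.1 * Real.cos (om * q.2) + u₂ q.1 * Real.sin (om * q.2)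
      fun_prop
  refine ⟨Ψ, hΨsm, ?_, ?_, ?_⟩
  · intro x y
    simp only [hΨ, pu₁ x, pv₁ x, pu₂ x, pv₂ x]
  · intro x y
    have hy : om * (y + b) = om * y + (m : ℝ) * (2 * π) := by
      rw [hom]; field_simp
    simp only [hΨ, hy, Real.cos_add_nat_mul_two_pi, Real.sin_add_nat_mul_two_pi]
  · intro p v w
    have hdiff : DifferentiableAt ℝ Ψ p := (hΨsm.differentiable (by simp)).differentiableAt
    have key : ∀ (i : Fin 4) (L : ℝ × ℝ →L[ℝ] ℝ), HasFDerivAt (fun q => Ψ q i) L p →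
        ∀ t, (fderiv ℝ Ψ p t) i = L t := by
      intro i L hL t
      have h0 := (ContinuousLinearMap.hasFDerivAt (PiLp.proj 2 (fun _ : Fin 4 => ℝ) i)
        (x := Ψ p)).comp p hdiff.hasFDerivAt
      have h1' : HasFDerivAt (fun q => Ψ q i)
          ((PiLp.proj 2 (fun _ : Fin 4 => ℝ) i).comp (fderiv ℝ Ψ p)) p := h0
      have h2' := h1'.unique hL
      exact congrArg (fun T : ℝ × ℝ →L[ℝ] ℝ => T t) h2'
    have du₁ : HasDerivAt u₁ (deriv u₁ p.1) p.1 :=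
      ((hu₁.differentiable (by simp)).differentiableAt).hasDerivAt
    have dv₁ : HasDerivAt v₁ (deriv v₁ p.1) p.1 :=
      ((hv₁.differentiable (by simp)).differentiableAt).hasDerivAt
    have du₂ : HasDerivAt u₂ (deriv u₂ p.1) p.1 :=
      ((hu₂.differentiable (by simp)).differentiableAt).hasDerivAt
    have dv₂ : HasDerivAt v₂ (deriv v₂ p.1) p.1 :=
      ((hv₂.differentiable (by simp)).differentiableAt).hasDerivAt
    have d0 := hasFDerivAt_rot_re om p du₁ dv₁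
    have d1 := hasFDerivAt_rot_im om p du₁ dv₁
    have d2 := hasFDerivAt_rot_re om p du₂ dv₂
    have d3 := hasFDerivAt_rot_im om p du₂ dv₂
    rw [PiLp.inner_apply, Fin.sum_univ_four]
    rw [key 0 _ d0 v, key 0 _ d0 w, key 1 _ d1 v, key 1 _ d1 w, key 2 _ d2 v, key 2 _ d2 w,
      key 3 _ d3 v, key 3 _ d3 w]
    simp only [add_apply, smul_apply,
      ContinuousLinearMap.coe_fst', ContinuousLinearMap.coe_snd', smul_eq_mul,
      RCLike.inner_apply, conj_trivial]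
    have e1 := h1 p.1
    have e2 := h2 p.1
    have e3 := h3 p.1
    have e4 := Real.cos_sq_add_sin_sq (om * p.2)
    linear_combination v.1 * w.1 * e3 + (v.1 * w.2 + v.2 * w.1) * e2 + v.2 * w.2 * e1 +
      ((deriv u₁ p.1 ^ 2 + deriv v₁ p.1 ^ 2 + deriv u₂ p.1 ^ 2 + deriv v₂ p.1 ^ 2) * v.1 * w.1 +
        om * (u₁ p.1 * deriv v₁ p.1 - v₁ p.1 * deriv u₁ p.1 + u₂ p.1 * deriv v₂ p.1 -
          v₂ p.1 * deriv u₂ p.1) * (v.1 * w.2 + v.2 * w.1) +
        om ^ 2 * (u₁ p.1 ^ 2 + v₁ p.1 ^ 2 + u₂ p.1 ^ 2 + v₂ p.1 ^ 2) * v.2 * w.2) * e4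

end Vale.Agent.Lib.P205
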