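import Mathlib

namespace Vale.Agent.Lib.P205

open scoped ContDiff
open MeasureTheory Real Set Filter

/-- Reparametrisation: if `W` is smooth, `2 pi`-periodic and bounded below by `c > 0`, and
`tau` is smooth with derivative `sigma` and `tau (x + a) = tau x + l`, where `l` is `k` times
half the integral of `W` over a period, then there is a smooth `lam` with
`(1/2) ∫_0^(lam x) W = tau x`; it satisfies `lam' = 2 sigma / W(lam)` and
`lam (x + a) = lam x + 2 pi k`. -/
theorem exists_reparam (W : ℝ → ℝ) (hW : ContDiff ℝ ∞ W) (hWper : Function.Periodic W (2 * π))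
    (c : ℝ) (hc : 0 < c) (hWc : ∀ u, c ≤ W u) (τ σ : ℝ → ℝ) (hτ : ContDiff ℝ ∞ τ)
    (hτd : ∀ x, HasDerivAt τ (σ x) x) (a l : ℝ) (hτper : ∀ x, τ (x + a) = τ x + l) (k : ℕ)
    (hl : l = k * ((∫ u in (0 : ℝ)..2 * π, W u) / 2)) :
    ∃ lam : ℝ → ℝ, ContDiff ℝ ∞ lam ∧ (∀ x, HasDerivAt lam (2 * σ x / W (lam x)) x) ∧
      ∀ x, lam (x + a) = lam x + 2 * π * k := by
  have hWpos : ∀ u, 0 < W u := fun u => lt_of_lt_of_le hc (hWc u)
  set S : ℝ → ℝ := fun t => (∫ u in (0 : ℝ)..t, W u) / 2 with hS
  have hSd : ∀ t, HasDerivAt S (W t / 2) t := fun t =>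
    (intervalIntegral.integral_hasDerivAt_right (hW.continuous.intervalIntegrable _ _)
      (hW.continuous.stronglyMeasurableAtFilter _ _) hW.continuous.continuousAt).div_const 2
  have hSderiv : deriv S = fun t => W t / 2 := funext fun t => (hSd t).deriv
  have hSsm : ContDiff ℝ ∞ S := by
    rw [contDiff_infty_iff_deriv]
    refine ⟨fun t => (hSd t).differentiableAt, ?_⟩
    rw [hSderiv]
    exact hW.div_const 2
  have hSmono : StrictMono S := by
    apply strictMono_of_deriv_pos
    intro t
    rw [hSderiv]
    have := hWpos t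
    positivity
  -- linear lower bound
  have hgmono : Monotone fun t => S t - c / 2 * t := by
    apply monotone_of_deriv_nonneg
    · intro t
      exact ((hSd t).differentiableAt).sub ((differentiableAt_id).const_mul _)
    · intro t
      have h1 : HasDerivAt (fun t => S t - c / 2 * t) (W t / 2 - c / 2 * 1) t :=
        (hSd t).sub ((hasDerivAt_id t).const_mul (c / 2))
      rw [h1.deriv]
      have := hWc t
      linarith
  have hS0 : S 0 = 0 := by simp [hS]
  have hup : ∀ t, 0 ≤ t → c / 2 * t ≤ S t := by
    intro t ht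
    have := hgmono ht
    simp only [hS0, mul_zero, sub_zero] at this
    linarith
  have hdown : ∀ t, t ≤ 0 → S t ≤ c / 2 * t := by
    intro t ht
    have := hgmono ht
    simp only [hS0, mul_zero, sub_zero] at this
    linarith
  have htop : Tendsto S atTop atTop := by
    refine tendsto_atTop_mono' atTop ?_ (tendsto_id.const_mul_atTop (by positivity : 0 < c / 2))
    filter_upwards [eventually_ge_atTop (0 : ℝ)] with t ht
    exact hup t ht
  have hbot : Tendsto S atBot atBot := by
    refine tendsto_atBot_mono' atBot ?_ (tendsto_id.const_mul_atBot (by positivity : 0 < c / 2))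
    filter_upwards [eventually_le_atBot (0 : ℝ)] with t ht
    exact hdown t ht
  have hsurj : Function.Surjective S := hSsm.continuous.surjective htop hbot
  set e : ℝ ≃o ℝ := StrictMono.orderIsoOfSurjective S hSmono hsurj with he
  have heS : ∀ t, e t = S t := fun t => rfl
  have hSe : ∀ y, S (e.symm y) = y := fun y => e.apply_symm_apply y
  have heSymm : ∀ t, e.symm (S t) = t := fun t => e.symm_apply_apply t
  -- smoothness of the inverse
  have hinv : ContDiff ℝ ∞ (fun y => e.symm y) := by
    rw [contDiff_iff_contDiffAt]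
    intro y
    let f : OpenPartialHomeomorph ℝ ℝ := e.toHomeomorph.toOpenPartialHomeomorph
    have hf : ∀ t, f t = S t := fun t => rfl
    have hfs : ∀ y, f.symm y = e.symm y := fun y => rfl
    have h1 : HasDerivAt f (W (f.symm y) / 2) (f.symm y) := hSd (f.symm y)
    have h2 : ContDiffAt ℝ ∞ f (f.symm y) := hSsm.contDiffAt
    have h0 : W (f.symm y) / 2 ≠ 0 := by
      have := hWpos (f.symm y)
      positivity
    exact f.contDiffAt_symm_deriv h0 (mem_univ y) h1 h2
  set lam : ℝ → ℝ := fun x => e.symm (τ x) with hlam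
  have hlamsm : ContDiff ℝ ∞ lam := hinv.comp hτ
  have hSlam : ∀ x, S (lam x) = τ x := fun x => hSe (τ x)
  -- periodicity of S
  have hSper : ∀ t, S (t + 2 * π) = S t + (∫ u in (0 : ℝ)..2 * π, W u) / 2 := by
    intro t
    have h1 : (∫ u in (0 : ℝ)..t, W u) + ∫ u in t..t + 2 * π, W u =
        ∫ u in (0 : ℝ)..t + 2 * π, W u :=
      intervalIntegral.integral_add_adjacent_intervals
        (hW.continuous.intervalIntegrable _ _) (hW.continuous.intervalIntegrable _ _)
    have h2 : ∫ u in t..t + 2 * π, W u = ∫ u in (0 : ℝ)..0 + 2 * π, W u :=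
      hWper.intervalIntegral_add_eq t 0
    rw [zero_add] at h2
    simp only [hS]
    rw [← h1, h2]
    ring
  have hSperk : ∀ (j : ℕ) (t : ℝ),
      S (t + 2 * π * j) = S t + j * ((∫ u in (0 : ℝ)..2 * π, W u) / 2) := by
    intro j
    induction j with
    | zero => intro t; simp
    | succ j ih =>
      intro t
      have h1 : t + 2 * π * ((j + 1 : ℕ) : ℝ) = (t + 2 * π * j) + 2 * π := by push_cast; ring
      rw [h1, hSper, ih]
      push_cast
      ring
  refine ⟨lam, hlamsm, fun x => ?_, fun x => ?_⟩
  · have hd : DifferentiableAt ℝ lam x := (hlamsm.differentiable (by simp)).differentiableAt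
    have h1 : HasDerivAt (fun x => S (lam x)) (W (lam x) / 2 * deriv lam x) x :=
      (hSd (lam x)).comp x hd.hasDerivAt
    have h2 : (fun x => S (lam x)) = τ := funext hSlam
    rw [h2] at h1
    have h3 := h1.unique (hτd x)
    have hWne : W (lam x) ≠ 0 := (hWpos (lam x)).ne'
    have h4 : deriv lam x = 2 * σ x / W (lam x) := by
      rw [eq_div_iff hWne]
      linarith
    rw [← h4]
    exact hd.hasDerivAt
  · apply hSmono.injective
    rw [hSlam, hτper, hSperk k (lam x), hSlam, hl]

end Vale.Agent.Lib.P205
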