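import Vale.Agent.Lib.P205.Warped

namespace Vale.Agent.Lib.P205

open scoped ContDiff
open MeasureTheory Real Set

/-- A positive continuous periodic real function is bounded below by a positive constant. -/
theorem periodic_pos_lower {r : ℝ → ℝ} {a : ℝ} (ha : 0 < a) (hr : Continuous r)
    (hper : Function.Periodic r a) (hpos : ∀ x, 0 < r x) : ∃ c : ℝ, 0 < c ∧ ∀ x, c ≤ r x := by
  obtain ⟨x₀, -, hx₀⟩ := (isCompact_Icc (a := (0 : ℝ)) (b := a)).exists_isMinOn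
    ⟨0, left_mem_Icc.mpr ha.le⟩ hr.continuousOn
  refine ⟨r x₀, hpos x₀, fun x => ?_⟩
  obtain ⟨y, hy, hxy⟩ := hper.exists_mem_Ico₀ ha x
  rw [hxy]
  exact hx₀ ⟨hy.1, hy.2.le⟩

/-- The algebraic identity behind the metric computation. -/
theorem speed_algebra (h hp om cc ss cp sp Z Zp X μ q W s : ℝ)
    (hom : om ≠ 0) (hcc : cc ≠ 0) (hss : ss ≠ 0)
    (hc2 : cc ^ 2 = (1 + Z) / 2) (hs2 : ss ^ 2 = (1 - Z) / 2)
    (Rc : 2 * cc * cp = Zp * X / 2) (Rs : 2 * ss * sp = -(Zp * X) / 2)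
    (hW : W ^ 2 * (1 - Z ^ 2) = Zp ^ 2 + (1 - Z ^ 2) ^ 2)
    (hXW : X * W = 2 * om * s)
    (hs : s ^ 2 * (h ^ 2 * om ^ 2) = q * (h ^ 2 * om ^ 2) - hp ^ 2) :
    ((hp * cc + h * cp) / om) ^ 2 + ((hp * ss + h * sp) / om) ^ 2 +
      (h * cc / om) ^ 2 * (om * μ + X * ss ^ 2) ^ 2 +
      (h * ss / om) ^ 2 * (om * μ - X * cc ^ 2) ^ 2 = h ^ 2 * (q + μ ^ 2) := by
  have hcs : cc ^ 2 + ss ^ 2 = 1 := by linarith
  have h1 : 1 + Z = 2 * cc ^ 2 := by linarith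
  have h2 : 1 - Z = 2 * ss ^ 2 := by linarith
  have hΔ : 1 - Z ^ 2 = 4 * cc ^ 2 * ss ^ 2 := by
    calc 1 - Z ^ 2 = (1 - Z) * (1 + Z) := by ring
      _ = 4 * cc ^ 2 * ss ^ 2 := by rw [h1, h2]; ring
  have hΔne : 4 * cc ^ 2 * ss ^ 2 ≠ 0 := by positivity
  have hrad : cc * cp + ss * sp = 0 := by linarith
  have hcp : (cp ^ 2 + sp ^ 2) * (4 * cc ^ 2 * ss ^ 2) = (Zp * X) ^ 2 / 4 := by
    have a1 : (2 * cc * cp) ^ 2 = (Zp * X / 2) ^ 2 := by rw [Rc]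
    have a2 : (2 * ss * sp) ^ 2 = (Zp * X / 2) ^ 2 := by rw [Rs]; ring
    calc (cp ^ 2 + sp ^ 2) * (4 * cc ^ 2 * ss ^ 2)
        = (2 * cc * cp) ^ 2 * ss ^ 2 + (2 * ss * sp) ^ 2 * cc ^ 2 := by ring
      _ = (Zp * X / 2) ^ 2 * (cc ^ 2 + ss ^ 2) := by rw [a1, a2]; ring
      _ = (Zp * X) ^ 2 / 4 := by rw [hcs]; ring
  have hW' : W ^ 2 * (4 * cc ^ 2 * ss ^ 2) = Zp ^ 2 + (4 * cc ^ 2 * ss ^ 2) ^ 2 := by
    rw [← hΔ]; exact hW
  have hkey : cp ^ 2 + sp ^ 2 + X ^ 2 * cc ^ 2 * ss ^ 2 = om ^ 2 * s ^ 2 := by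
    apply mul_right_cancel₀ hΔne
    calc (cp ^ 2 + sp ^ 2 + X ^ 2 * cc ^ 2 * ss ^ 2) * (4 * cc ^ 2 * ss ^ 2)
        = (cp ^ 2 + sp ^ 2) * (4 * cc ^ 2 * ss ^ 2) + X ^ 2 / 4 * (4 * cc ^ 2 * ss ^ 2) ^ 2 := by
          ring
      _ = (Zp * X) ^ 2 / 4 + X ^ 2 / 4 * (4 * cc ^ 2 * ss ^ 2) ^ 2 := by rw [hcp]
      _ = X ^ 2 / 4 * (Zp ^ 2 + (4 * cc ^ 2 * ss ^ 2) ^ 2) := by ring
      _ = X ^ 2 / 4 * (W ^ 2 * (4 * cc ^ 2 * ss ^ 2)) := by rw [hW']
      _ = (X * W) ^ 2 / 4 * (4 * cc ^ 2 * ss ^ 2) := by ring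
      _ = om ^ 2 * s ^ 2 * (4 * cc ^ 2 * ss ^ 2) := by rw [hXW]; ring
  have e1 : (hp * cc + h * cp) ^ 2 + (hp * ss + h * sp) ^ 2 = hp ^ 2 + h ^ 2 * (cp ^ 2 + sp ^ 2) := by
    linear_combination hp ^ 2 * hcs + 2 * hp * h * hrad
  have e2 : cc ^ 2 * (om * μ + X * ss ^ 2) ^ 2 + ss ^ 2 * (om * μ - X * cc ^ 2) ^ 2 =
      om ^ 2 * μ ^ 2 + X ^ 2 * cc ^ 2 * ss ^ 2 := by
    linear_combination (om ^ 2 * μ ^ 2 + X ^ 2 * cc ^ 2 * ss ^ 2) * hcs
  have hom2 : om ^ 2 ≠ 0 := pow_ne_zero 2 hom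
  have e3 : ((hp * cc + h * cp) / om) ^ 2 + ((hp * ss + h * sp) / om) ^ 2 +
      (h * cc / om) ^ 2 * (om * μ + X * ss ^ 2) ^ 2 +
      (h * ss / om) ^ 2 * (om * μ - X * cc ^ 2) ^ 2 =
      ((hp * cc + h * cp) ^ 2 + (hp * ss + h * sp) ^ 2 +
        h ^ 2 * (cc ^ 2 * (om * μ + X * ss ^ 2) ^ 2 + ss ^ 2 * (om * μ - X * cc ^ 2) ^ 2)) /
        om ^ 2 := by
    field_simp
    ring
  rw [e3, e1, e2, div_eq_iff hom2]
  linear_combination h ^ 2 * hkey + hs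

/-- The frequency and the speed: for `m` large, with `om = 2 pi m / b` and `h = sqrt G`, the
function `(E G - F^2) / G^2 - h'^2 / (G om^2)` is positive; `s` is its square root, and
`om` times the integral of `s` over a period is at least `8 pi`. -/
theorem exists_speed (a b : ℝ) (ha : 0 < a) (hb : 0 < b) (E F G : ℝ → ℝ)
    (hE : ContDiff ℝ ∞ E) (hF : ContDiff ℝ ∞ F) (hG : ContDiff ℝ ∞ G)
    (hGpos : ∀ x, 0 < G x) (hdet : ∀ x, 0 < E x * G x - F x ^ 2)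
    (hEper : ∀ x, E (x + a) = E x) (hFper : ∀ x, F (x + a) = F x)
    (hGper : ∀ x, G (x + a) = G x) :
    ∃ (m : ℕ) (h s : ℝ → ℝ), 0 < m ∧ ContDiff ℝ ∞ h ∧ ContDiff ℝ ∞ s ∧ (∀ x, 0 < h x) ∧
      (∀ x, h x ^ 2 = G x) ∧ (∀ x, h (x + a) = h x) ∧ (∀ x, 0 < s x) ∧
      (∀ x, s (x + a) = s x) ∧
      (∀ x, s x ^ 2 = (E x * G x - F x ^ 2) / G x ^ 2 -
        deriv h x ^ 2 / (G x * (2 * π * m / b) ^ 2)) ∧
      8 * π ≤ (2 * π * m / b) * ∫ t in (0 : ℝ)..a, s t := by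
  set h : ℝ → ℝ := fun x => Real.sqrt (G x) with hh
  have hhsm : ContDiff ℝ ∞ h := hG.sqrt (fun x => (hGpos x).ne')
  have hhsq : ∀ x, h x ^ 2 = G x := fun x => Real.sq_sqrt (hGpos x).le
  have hhpos : ∀ x, 0 < h x := fun x => Real.sqrt_pos.mpr (hGpos x)
  have hhper : ∀ x, h (x + a) = h x := fun x => by simp only [hh, hGper x]
  have hdsm : ContDiff ℝ ∞ (deriv h) := (contDiff_infty_iff_deriv.mp hhsm).2
  have hdper : ∀ x, deriv h (x + a) = deriv h x := by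
    intro x
    rw [← deriv_comp_add_const]
    congr 1
    funext y
    exact hhper y
  -- the two auxiliary periodic functions
  set q : ℝ → ℝ := fun x => (E x * G x - F x ^ 2) / G x ^ 2 with hq
  set r : ℝ → ℝ := fun x => deriv h x ^ 2 / G x with hr
  have hqsm : ContDiff ℝ ∞ q :=
    ((hE.mul hG).sub (hF.pow 2)).div (hG.pow 2) (fun x => pow_ne_zero 2 (hGpos x).ne')
  have hrsm : ContDiff ℝ ∞ r := (hdsm.pow 2).div hG (fun x => (hGpos x).ne')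
  have hqpos : ∀ x, 0 < q x := fun x => div_pos (hdet x) (pow_pos (hGpos x) 2)
  have hqper : Function.Periodic q a := by
    intro x
    simp only [hq, hEper x, hFper x, hGper x]
  have hrper : Function.Periodic r a := by
    intro x
    simp only [hr, hdper x, hGper x]
  obtain ⟨c₁, hc₁, hqc⟩ := periodic_pos_lower ha hqsm.continuous hqper hqpos
  obtain ⟨B, hB⟩ := periodic_bddAbove ha hrsm.continuous hrper
  have hB0 : 0 ≤ B := le_trans (div_nonneg (sq_nonneg _) (hGpos 0).le) (hB 0)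
  set c₂ : ℝ := Real.sqrt (c₁ / 2) with hc₂
  have hc₂pos : 0 < c₂ := Real.sqrt_pos.mpr (by positivity)
  have hc₂sq : c₂ ^ 2 = c₁ / 2 := Real.sq_sqrt (by positivity)
  -- the frequency
  set R : ℝ := 2 * B / c₁ + 1 + 8 * π / (a * c₂) with hR
  obtain ⟨m, hm⟩ := exists_nat_gt (R * b / (2 * π))
  have hRpos : 0 < R := by positivity
  have hmpos : 0 < m := by
    have : (0 : ℝ) < R * b / (2 * π) := by positivity
    exact_mod_cast this.trans hm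
  set om : ℝ := 2 * π * m / b with hom
  have hRom : R < om := by
    rw [hom, lt_div_iff₀ hb]
    have := (div_lt_iff₀ (by positivity : (0 : ℝ) < 2 * π)).mp hm
    linarith
  have hompos : 0 < om := hRpos.trans hRom
  have h8 : 0 < 8 * π / (a * c₂) := by positivity
  have hom1 : 1 ≤ om := by
    have : 0 ≤ 2 * B / c₁ := by positivity
    linarith
  have hom2 : 2 * B / c₁ ≤ om ^ 2 := by
    have : 0 ≤ 2 * B / c₁ := by positivity
    nlinarith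
  have hBom : B / om ^ 2 ≤ c₁ / 2 := by
    rw [div_le_iff₀ (by positivity)]
    have := (div_le_iff₀ hc₁).mp hom2
    linarith
  have hVpos : ∀ x, c₁ / 2 ≤ q x - deriv h x ^ 2 / (G x * om ^ 2) := by
    intro x
    have h1 : deriv h x ^ 2 / (G x * om ^ 2) = r x / om ^ 2 := by
      simp only [hr]
      rw [div_div]
    rw [h1]
    have h2 : r x / om ^ 2 ≤ B / om ^ 2 := div_le_div_of_nonneg_right (hB x) (by positivity)
    linarith [hqc x]
  -- the speed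
  set s : ℝ → ℝ := fun x => Real.sqrt (q x - deriv h x ^ 2 / (G x * om ^ 2)) with hs
  have hVsm : ContDiff ℝ ∞ fun x => q x - deriv h x ^ 2 / (G x * om ^ 2) :=
    hqsm.sub ((hdsm.pow 2).div (hG.mul contDiff_const)
      (fun x => mul_ne_zero (hGpos x).ne' (pow_ne_zero 2 hompos.ne')))
  have hssm : ContDiff ℝ ∞ s :=
    hVsm.sqrt (fun x => (lt_of_lt_of_le (by positivity) (hVpos x)).ne')
  have hssq : ∀ x, s x ^ 2 = q x - deriv h x ^ 2 / (G x * om ^ 2) := fun x =>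
    Real.sq_sqrt (le_trans (by positivity) (hVpos x))
  have hsge : ∀ x, c₂ ≤ s x := fun x => Real.sqrt_le_sqrt (hVpos x)
  have hspos : ∀ x, 0 < s x := fun x => lt_of_lt_of_le hc₂pos (hsge x)
  have hsper : ∀ x, s (x + a) = s x := by
    intro x
    simp only [hs, hqper x, hdper x, hGper x]
  refine ⟨m, h, s, hmpos, hhsm, hssm, hhpos, hhsq, hhper, hspos, hsper, hssq, ?_⟩
  have hint : a * c₂ ≤ ∫ t in (0 : ℝ)..a, s t := by
    have hic : IntervalIntegrable (fun _ : ℝ => c₂) volume 0 a := intervalIntegrable_const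
    have hmono := intervalIntegral.integral_mono_on ha.le
      hic (hssm.continuous.intervalIntegrable 0 a) (fun x _ => hsge x)
    rw [intervalIntegral.integral_const, smul_eq_mul, sub_zero] at hmono
    exact hmono
  have h9 : 8 * π / (a * c₂) ≤ om := by
    have : 0 ≤ 2 * B / c₁ := by positivity
    linarith
  have h10 : 8 * π ≤ om * (a * c₂) := by
    rw [div_le_iff₀ (by positivity)] at h9
    exact h9
  calc 8 * π ≤ om * (a * c₂) := h10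
    _ ≤ om * ∫ t in (0 : ℝ)..a, s t := mul_le_mul_of_nonneg_left hint hompos.le

end Vale.Agent.Lib.P205
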