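import Vale.Agent.Lib.P205.Lap
import Vale.Agent.Lib.P205.Reparam
import Vale.Agent.Lib.P205.Frame
import Vale.Agent.Lib.P205.Speed

namespace Vale.Agent.Lib.P205

open scoped ContDiff
open MeasureTheory Real Set

/-- Polar form: for `u = rho cos psi`, `v = rho sin psi`, the squared norm, the angular
momentum and the squared speed in terms of `rho`, `psi` and their derivatives. -/
theorem polar_identities {ρ ψ : ℝ → ℝ} {ρ' ψ' x : ℝ} (hρ : HasDerivAt ρ ρ' x)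
    (hψ : HasDerivAt ψ ψ' x) :
    (ρ x * Real.cos (ψ x)) ^ 2 + (ρ x * Real.sin (ψ x)) ^ 2 = ρ x ^ 2 ∧
    ρ x * Real.cos (ψ x) * deriv (fun y => ρ y * Real.sin (ψ y)) x -
      ρ x * Real.sin (ψ x) * deriv (fun y => ρ y * Real.cos (ψ y)) x = ρ x ^ 2 * ψ' ∧
    deriv (fun y => ρ y * Real.cos (ψ y)) x ^ 2 + deriv (fun y => ρ y * Real.sin (ψ y)) x ^ 2 =
      ρ' ^ 2 + ρ x ^ 2 * ψ' ^ 2 := by
  have hu : HasDerivAt (fun y => ρ y * Real.cos (ψ y))
      (ρ' * Real.cos (ψ x) + ρ x * (-Real.sin (ψ x) * ψ')) x := hρ.mul hψ.cos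
  have hv : HasDerivAt (fun y => ρ y * Real.sin (ψ y))
      (ρ' * Real.sin (ψ x) + ρ x * (Real.cos (ψ x) * ψ')) x := hρ.mul hψ.sin
  rw [hu.deriv, hv.deriv]
  have e := Real.cos_sq_add_sin_sq (ψ x)
  refine ⟨?_, ?_, ?_⟩
  · linear_combination ρ x ^ 2 * e
  · linear_combination ρ x ^ 2 * ψ' * e
  · linear_combination (ρ' ^ 2 + ρ x ^ 2 * ψ' ^ 2) * e

/-- The curve in `C^2`: smooth `a`-periodic functions `u1, v1, u2, v2` with
`om^2 |(u, v)|^2 = G`, angular momentum `F / om` and squared speed `E`, where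
`om = 2 pi m / b`. -/
theorem exists_curve (a b : ℝ) (ha : 0 < a) (hb : 0 < b) (E F G : ℝ → ℝ)
    (hE : ContDiff ℝ ∞ E) (hF : ContDiff ℝ ∞ F) (hG : ContDiff ℝ ∞ G)
    (hGpos : ∀ x, 0 < G x) (hdet : ∀ x, 0 < E x * G x - F x ^ 2)
    (hEper : ∀ x, E (x + a) = E x) (hFper : ∀ x, F (x + a) = F x)
    (hGper : ∀ x, G (x + a) = G x) :
    ∃ (m : ℕ) (u₁ v₁ u₂ v₂ : ℝ → ℝ), ContDiff ℝ ∞ u₁ ∧ ContDiff ℝ ∞ v₁ ∧ ContDiff ℝ ∞ u₂ ∧
      ContDiff ℝ ∞ v₂ ∧ (∀ x, u₁ (x + a) = u₁ x) ∧ (∀ x, v₁ (x + a) = v₁ x) ∧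
      (∀ x, u₂ (x + a) = u₂ x) ∧ (∀ x, v₂ (x + a) = v₂ x) ∧
      (∀ x, (2 * π * m / b) ^ 2 * (u₁ x ^ 2 + v₁ x ^ 2 + u₂ x ^ 2 + v₂ x ^ 2) = G x) ∧
      (∀ x, (2 * π * m / b) * (u₁ x * deriv v₁ x - v₁ x * deriv u₁ x +
        u₂ x * deriv v₂ x - v₂ x * deriv u₂ x) = F x) ∧
      (∀ x, deriv u₁ x ^ 2 + deriv v₁ x ^ 2 + deriv u₂ x ^ 2 + deriv v₂ x ^ 2 = E x) := by
  obtain ⟨m, h, s, hm, hhsm, hssm, hhpos, hhsq, hhper, hspos, hsper, hssq, hl8⟩ :=
    exists_speed a b ha hb E F G hE hF hG hGpos hdet hEper hFper hGper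
  have hmR : (0 : ℝ) < m := by exact_mod_cast hm
  set om : ℝ := 2 * π * m / b with hom
  have hompos : 0 < om := by positivity
  have homne : om ≠ 0 := hompos.ne'
  -- the shear
  set μ : ℝ → ℝ := fun x => F x / G x with hμ
  have hμsm : ContDiff ℝ ∞ μ := hF.div hG (fun x => (hGpos x).ne')
  have hμper : Function.Periodic μ a := fun x => by simp only [hμ, hFper x, hGper x]
  have hsper' : Function.Periodic s a := hsper
  -- the arclength
  set τ : ℝ → ℝ := fun x => om * ∫ t in (0 : ℝ)..x, s t with hτ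
  have hτd : ∀ x, HasDerivAt τ (om * s x) x := fun x =>
    (intervalIntegral.integral_hasDerivAt_right (hssm.continuous.intervalIntegrable _ _)
      (hssm.continuous.stronglyMeasurableAtFilter _ _) hssm.continuous.continuousAt).const_mul om
  have hτsm : ContDiff ℝ ∞ τ := by
    rw [contDiff_infty_iff_deriv]
    refine ⟨fun x => (hτd x).differentiableAt, ?_⟩
    have : deriv τ = fun x => om * s x := funext fun x => (hτd x).deriv
    rw [this]
    exact contDiff_const.mul hssm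
  set l : ℝ := om * ∫ t in (0 : ℝ)..a, s t with hl
  have hτper : ∀ x, τ (x + a) = τ x + l := by
    intro x
    have h1 : (∫ t in (0 : ℝ)..x, s t) + ∫ t in x..x + a, s t = ∫ t in (0 : ℝ)..x + a, s t :=
      intervalIntegral.integral_add_adjacent_intervals
        (hssm.continuous.intervalIntegrable _ _) (hssm.continuous.intervalIntegrable _ _)
    have h2 : ∫ t in x..x + a, s t = ∫ t in (0 : ℝ)..0 + a, s t :=
      hsper'.intervalIntegral_add_eq x 0
    rw [zero_add] at h2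
    simp only [hτ, hl]
    rw [← h1, h2]
    ring
  -- the gauge phase
  set Θ : ℝ → ℝ := fun x => om * ∫ t in (0 : ℝ)..x, μ t with hΘ
  have hΘd : ∀ x, HasDerivAt Θ (om * μ x) x := fun x =>
    (intervalIntegral.integral_hasDerivAt_right (hμsm.continuous.intervalIntegrable _ _)
      (hμsm.continuous.stronglyMeasurableAtFilter _ _) hμsm.continuous.continuousAt).const_mul om
  have hΘsm : ContDiff ℝ ∞ Θ := by
    rw [contDiff_infty_iff_deriv]
    refine ⟨fun x => (hΘd x).differentiableAt, ?_⟩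
    have : deriv Θ = fun x => om * μ x := funext fun x => (hΘd x).deriv
    rw [this]
    exact contDiff_const.mul hμsm
  set Mμ : ℝ := ∫ t in (0 : ℝ)..a, μ t with hMμ
  have hΘper : ∀ x, Θ (x + a) = Θ x + om * Mμ := by
    intro x
    have h1 : (∫ t in (0 : ℝ)..x, μ t) + ∫ t in x..x + a, μ t = ∫ t in (0 : ℝ)..x + a, μ t :=
      intervalIntegral.integral_add_adjacent_intervals
        (hμsm.continuous.intervalIntegrable _ _) (hμsm.continuous.intervalIntegrable _ _)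
    have h2 : ∫ t in x..x + a, μ t = ∫ t in (0 : ℝ)..0 + a, μ t :=
      hμper.intervalIntegral_add_eq x 0
    rw [zero_add] at h2
    simp only [hΘ, hMμ]
    rw [← h1, h2]
    ring
  -- the number of laps
  set k : ℕ := ⌊l / π⌋₊ with hk
  have hlπ : 8 ≤ l / π := by rw [le_div_iff₀ pi_pos]; exact hl8
  have hk8 : 8 ≤ k := Nat.le_floor (by exact_mod_cast hlπ)
  have hk8' : (8 : ℝ) ≤ k := by exact_mod_cast hk8
  have hkle : (k : ℝ) ≤ l / π := Nat.floor_le (by positivity)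
  have hklt : l / π < k + 1 := Nat.lt_floor_add_one _
  have hkpos : (0 : ℝ) < k := by linarith
  -- the height of the base circle
  set j : ℤ := ⌊(om * Mμ / π - k) / 2⌋ with hj
  have hj1 : (j : ℝ) ≤ (om * Mμ / π - k) / 2 := Int.floor_le _
  have hj2 : (om * Mμ / π - k) / 2 < j + 1 := Int.lt_floor_add_one _
  set z₀ : ℝ := (om * Mμ / π - k - 2 * j) / k with hz₀
  have hz0 : 0 ≤ z₀ := div_nonneg (by linarith) hkpos.le
  have hz1 : z₀ ≤ 1 / 4 := by
    rw [hz₀, div_le_iff₀ hkpos]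
    linarith
  have hzrel : k * π * z₀ = om * Mμ - π * k - 2 * π * j := by
    rw [hz₀]
    field_simp
  -- the lap
  have ht0 : π ≤ l / k := by
    rw [le_div_iff₀ hkpos]
    have := (le_div_iff₀ pi_pos).mp hkle
    linarith
  have ht1 : l / k ≤ 9 * π / 8 := by
    rw [div_le_iff₀ hkpos]
    have := (div_lt_iff₀ pi_pos).mp hklt
    nlinarith [pi_pos]
  obtain ⟨e, he0, he1, hlap⟩ := exists_lap z₀ (l / k) hz0 hz1 ht0 ht1
  have hWsm := contDiff_lapSpeed hz0 hz1 he0 he1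
  have hWper := lapSpeed_periodic z₀ e
  have hWlow := lapSpeed_lower hz0 hz1 he0 he1
  have hlk : l = k * ((∫ u in (0 : ℝ)..2 * π, lapSpeed z₀ e u) / 2) := by
    rw [hlap]
    field_simp
  obtain ⟨lam, hlamsm, hlamd, hlamper⟩ := exists_reparam (lapSpeed z₀ e) hWsm hWper (1 / 2)
    (by norm_num) hWlow τ (fun x => om * s x) hτsm hτd a l hτper k hlk
  -- the height along the curve
  set Z : ℝ → ℝ := fun x => z₀ + e * Real.cos (6 * lam x) with hZ
  have hZsm : ContDiff ℝ ∞ Z := by fun_prop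
  have hZb : ∀ x, 7 / 16 ≤ 1 - Z x ^ 2 := fun x => (height_bounds hz0 hz1 he0 he1 (lam x)).1
  have hZ1 : ∀ x, 0 < (1 + Z x) / 2 := by
    intro x
    have := hZb x
    have h1 : -1 < Z x := by nlinarith
    linarith
  have hZ2 : ∀ x, 0 < (1 - Z x) / 2 := by
    intro x
    have := hZb x
    have h1 : Z x < 1 := by nlinarith
    linarith
  have hlam6 : ∀ x, 6 * lam (x + a) = 6 * lam x + ((6 * k : ℕ) : ℝ) * (2 * π) := by
    intro x
    rw [hlamper x]
    push_cast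
    ring
  have hZper : ∀ x, Z (x + a) = Z x := by
    intro x
    simp only [hZ]
    rw [hlam6 x, Real.cos_add_nat_mul_two_pi]
  set cF : ℝ → ℝ := fun x => Real.sqrt ((1 + Z x) / 2) with hcF
  set sF : ℝ → ℝ := fun x => Real.sqrt ((1 - Z x) / 2) with hsF
  have hcFsm : ContDiff ℝ ∞ cF :=
    ((contDiff_const.add hZsm).div_const 2).sqrt (fun x => (hZ1 x).ne')
  have hsFsm : ContDiff ℝ ∞ sF :=
    ((contDiff_const.sub hZsm).div_const 2).sqrt (fun x => (hZ2 x).ne')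
  have hcFpos : ∀ x, 0 < cF x := fun x => Real.sqrt_pos.mpr (hZ1 x)
  have hsFpos : ∀ x, 0 < sF x := fun x => Real.sqrt_pos.mpr (hZ2 x)
  have hc2 : ∀ x, cF x ^ 2 = (1 + Z x) / 2 := fun x => Real.sq_sqrt (hZ1 x).le
  have hs2 : ∀ x, sF x ^ 2 = (1 - Z x) / 2 := fun x => Real.sq_sqrt (hZ2 x).le
  have hcFper : ∀ x, cF (x + a) = cF x := fun x => by simp only [hcF, hZper x]
  have hsFper : ∀ x, sF (x + a) = sF x := fun x => by simp only [hsF, hZper x]
  -- radii and phases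
  set ρ₁ : ℝ → ℝ := fun x => h x * cF x / om with hρ₁
  set ρ₂ : ℝ → ℝ := fun x => h x * sF x / om with hρ₂
  set ψ₁ : ℝ → ℝ := fun x => Θ x + ((1 - z₀) * lam x / 2 - e * Real.sin (6 * lam x) / 12)
    with hψ₁
  set ψ₂ : ℝ → ℝ := fun x => Θ x + (-(1 + z₀) * lam x / 2 - e * Real.sin (6 * lam x) / 12)
    with hψ₂
  have hρ₁sm : ContDiff ℝ ∞ ρ₁ := (hhsm.mul hcFsm).div_const om
  have hρ₂sm : ContDiff ℝ ∞ ρ₂ := (hhsm.mul hsFsm).div_const om
  have hψ₁sm : ContDiff ℝ ∞ ψ₁ := by fun_prop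
  have hψ₂sm : ContDiff ℝ ∞ ψ₂ := by fun_prop
  have hρ₁per : ∀ x, ρ₁ (x + a) = ρ₁ x := fun x => by simp only [hρ₁, hhper x, hcFper x]
  have hρ₂per : ∀ x, ρ₂ (x + a) = ρ₂ x := fun x => by simp only [hρ₂, hhper x, hsFper x]
  have hsin6 : ∀ x, Real.sin (6 * lam (x + a)) = Real.sin (6 * lam x) := by
    intro x
    rw [hlam6 x, Real.sin_add_nat_mul_two_pi]
  have hψ₁per : ∀ x, ψ₁ (x + a) = ψ₁ x + ((k : ℤ) + j : ℤ) * (2 * π) := by
    intro x
    simp only [hψ₁]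
    rw [hΘper x, hsin6 x, hlamper x]
    push_cast
    linear_combination (-1 : ℝ) * hzrel
  have hψ₂per : ∀ x, ψ₂ (x + a) = ψ₂ x + (j : ℤ) * (2 * π) := by
    intro x
    simp only [hψ₂]
    rw [hΘper x, hsin6 x, hlamper x]
    linear_combination (-1 : ℝ) * hzrel
  -- pointwise derivative data
  have hdata : ∀ x, ∃ ρ₁' ρ₂' ψ₁' ψ₂' : ℝ, HasDerivAt ρ₁ ρ₁' x ∧ HasDerivAt ρ₂ ρ₂' x ∧
      HasDerivAt ψ₁ ψ₁' x ∧ HasDerivAt ψ₂ ψ₂' x ∧
      om * (ρ₁ x ^ 2 * ψ₁' + ρ₂ x ^ 2 * ψ₂') = F x ∧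
      ρ₁' ^ 2 + ρ₂' ^ 2 + ρ₁ x ^ 2 * ψ₁' ^ 2 + ρ₂ x ^ 2 * ψ₂' ^ 2 = E x := by
    intro x
    set X : ℝ := 2 * (om * s x) / lapSpeed z₀ e (lam x) with hX
    set Zp : ℝ := -(e * 6 * Real.sin (6 * lam x)) with hZp
    have hWpos : 0 < lapSpeed z₀ e (lam x) := lt_of_lt_of_le (by norm_num) (hWlow (lam x))
    have hlamd' : HasDerivAt lam X x := hlamd x
    have hZd : HasDerivAt Z (Zp * X) x := by
      have h1 := (((hlamd'.const_mul 6).cos).const_mul e).const_add z₀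
      refine h1.congr_deriv ?_
      rw [hZp]
      ring
    have hcd : HasDerivAt cF (Zp * X / 2 / (2 * cF x)) x :=
      ((hZd.const_add 1).div_const 2).sqrt (hZ1 x).ne'
    have hsd : HasDerivAt sF (-(Zp * X) / 2 / (2 * sF x)) x := by
      have h1 := ((hZd.const_sub 1).div_const 2).sqrt (hZ2 x).ne'
      exact h1
    have hhd : HasDerivAt h (deriv h x) x :=
      ((hhsm.differentiable (by simp)).differentiableAt).hasDerivAt
    have hρ₁d : HasDerivAt ρ₁ ((deriv h x * cF x + h x * (Zp * X / 2 / (2 * cF x))) / om) x :=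
      (hhd.mul hcd).div_const om
    have hρ₂d : HasDerivAt ρ₂ ((deriv h x * sF x + h x * (-(Zp * X) / 2 / (2 * sF x))) / om)
        x := (hhd.mul hsd).div_const om
    have hsin : HasDerivAt (fun y => Real.sin (6 * lam y)) (Real.cos (6 * lam x) * (6 * X)) x :=
      (hlamd'.const_mul 6).sin
    have hψ₁d : HasDerivAt ψ₁ (om * μ x + X * sF x ^ 2) x := by
      have h1 := (hΘd x).add ((((hlamd'.const_mul (1 - z₀)).div_const 2)).sub
        ((hsin.const_mul e).div_const 12))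
      refine h1.congr_deriv ?_
      rw [hs2 x]
      simp only [hZ]
      ring
    have hψ₂d : HasDerivAt ψ₂ (om * μ x - X * cF x ^ 2) x := by
      have h1 := (hΘd x).add ((((hlamd'.const_mul (-(1 + z₀))).div_const 2)).sub
        ((hsin.const_mul e).div_const 12))
      refine h1.congr_deriv ?_
      rw [hc2 x]
      simp only [hZ]
      ring
    refine ⟨_, _, _, _, hρ₁d, hρ₂d, hψ₁d, hψ₂d, ?_, ?_⟩
    · have hcs : cF x ^ 2 + sF x ^ 2 = 1 := by rw [hc2 x, hs2 x]; ring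
      have hFG : F x = h x ^ 2 * μ x := by
        rw [hhsq x]
        simp only [hμ]
        field_simp [(hGpos x).ne']
      rw [hFG]
      simp only [hρ₁, hρ₂]
      field_simp
      linear_combination (om * μ x * h x ^ 2) * hcs
    · have hWsq := lapSpeed_sq hz0 hz1 he0 he1 (lam x)
      have hΔ : 1 - Z x ^ 2 ≠ 0 := (lt_of_lt_of_le (by norm_num) (hZb x)).ne'
      have hZx : Z x = z₀ + e * Real.cos (6 * lam x) := rfl
      have hΔ' : 1 - (z₀ + e * Real.cos (6 * lam x)) ^ 2 ≠ 0 := by rw [← hZx]; exact hΔ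
      have hW' : lapSpeed z₀ e (lam x) ^ 2 * (1 - Z x ^ 2) = Zp ^ 2 + (1 - Z x ^ 2) ^ 2 := by
        rw [hWsq, hZp, hZx]
        field_simp
      have hXW : X * lapSpeed z₀ e (lam x) = 2 * om * s x := by
        rw [hX]
        field_simp
      have hsq' : s x ^ 2 * (h x ^ 2 * om ^ 2) =
          (E x * G x - F x ^ 2) / G x ^ 2 * (h x ^ 2 * om ^ 2) - deriv h x ^ 2 := by
        rw [hssq x, hhsq x]
        field_simp [(hGpos x).ne']
      have hRc : 2 * cF x * (Zp * X / 2 / (2 * cF x)) = Zp * X / 2 := by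
        field_simp [(hcFpos x).ne']
      have hRs : 2 * sF x * (-(Zp * X) / 2 / (2 * sF x)) = -(Zp * X) / 2 := by
        field_simp [(hsFpos x).ne']
      have hmain := speed_algebra (h x) (deriv h x) om (cF x) (sF x) _ _ (Z x) Zp X (μ x)
        ((E x * G x - F x ^ 2) / G x ^ 2) (lapSpeed z₀ e (lam x)) (s x) homne (hcFpos x).ne'
        (hsFpos x).ne' (hc2 x) (hs2 x) hRc hRs hW' hXW hsq'
      have hfin : h x ^ 2 * ((E x * G x - F x ^ 2) / G x ^ 2 + μ x ^ 2) = E x := by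
        rw [hhsq x]
        simp only [hμ]
        field_simp [(hGpos x).ne']
        ring
      simp only [hρ₁, hρ₂]
      rw [← hfin, ← hmain]
  refine ⟨m, fun x => ρ₁ x * Real.cos (ψ₁ x), fun x => ρ₁ x * Real.sin (ψ₁ x),
    fun x => ρ₂ x * Real.cos (ψ₂ x), fun x => ρ₂ x * Real.sin (ψ₂ x),
    hρ₁sm.mul hψ₁sm.cos, hρ₁sm.mul hψ₁sm.sin, hρ₂sm.mul hψ₂sm.cos, hρ₂sm.mul hψ₂sm.sin,
    ?_, ?_, ?_, ?_, ?_, ?_, ?_⟩
  · intro x
    simp only [hρ₁per x, hψ₁per x, Real.cos_add_int_mul_two_pi]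
  · intro x
    simp only [hρ₁per x, hψ₁per x, Real.sin_add_int_mul_two_pi]
  · intro x
    simp only [hρ₂per x, hψ₂per x, Real.cos_add_int_mul_two_pi]
  · intro x
    simp only [hρ₂per x, hψ₂per x, Real.sin_add_int_mul_two_pi]
  · intro x
    obtain ⟨ρ₁', ρ₂', ψ₁', ψ₂', d1, d2, d3, d4, -, -⟩ := hdata x
    have p1 := (polar_identities d1 d3).1
    have p2 := (polar_identities d2 d4).1
    have hcs : cF x ^ 2 + sF x ^ 2 = 1 := by rw [hc2 x, hs2 x]; ring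
    have e1 : om ^ 2 * (ρ₁ x ^ 2 + ρ₂ x ^ 2) = h x ^ 2 := by
      simp only [hρ₁, hρ₂]
      field_simp
      linear_combination h x ^ 2 * hcs
    rw [← hhsq x, ← e1]
    linear_combination om ^ 2 * p1 + om ^ 2 * p2
  · intro x
    obtain ⟨ρ₁', ρ₂', ψ₁', ψ₂', d1, d2, d3, d4, hF', -⟩ := hdata x
    have p1 := (polar_identities d1 d3).2.1
    have p2 := (polar_identities d2 d4).2.1
    rw [← hF']
    linear_combination om * p1 + om * p2
  · intro x
    obtain ⟨ρ₁', ρ₂', ψ₁', ψ₂', d1, d2, d3, d4, -, hE'⟩ := hdata x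
    have p1 := (polar_identities d1 d3).2.2
    have p2 := (polar_identities d2 d4).2.2
    rw [← hE']
    linear_combination p1 + p2

/-- Every smooth metric `E(x) dx^2 + 2 F(x) dx dy + G(x) dy^2` on the torus
`R^2 / (a Z x b Z)` is induced by a smooth doubly periodic map into `R^4`. -/
theorem invariant_torus (a b : ℝ) (ha : 0 < a) (hb : 0 < b) (E F G : ℝ → ℝ)
    (hE : ContDiff ℝ ∞ E) (hF : ContDiff ℝ ∞ F) (hG : ContDiff ℝ ∞ G)
    (hGpos : ∀ x, 0 < G x) (hdet : ∀ x, 0 < E x * G x - F x ^ 2)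
    (hEper : ∀ x, E (x + a) = E x) (hFper : ∀ x, F (x + a) = F x)
    (hGper : ∀ x, G (x + a) = G x) :
    ∃ Ψ : ℝ × ℝ → EuclideanSpace ℝ (Fin 4), ContDiff ℝ ∞ Ψ ∧
      (∀ x y, Ψ (x + a, y) = Ψ (x, y)) ∧ (∀ x y, Ψ (x, y + b) = Ψ (x, y)) ∧
      ∀ p v w : ℝ × ℝ, inner ℝ (fderiv ℝ Ψ p v) (fderiv ℝ Ψ p w) =
        E p.1 * v.1 * w.1 + F p.1 * (v.1 * w.2 + v.2 * w.1) + G p.1 * v.2 * w.2 := by
  obtain ⟨m, u₁, v₁, u₂, v₂, s1, s2, s3, s4, q1, q2, q3, q4, h1, h2, h3⟩ :=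
    exists_curve a b ha hb E F G hE hF hG hGpos hdet hEper hFper hGper
  exact immersion_of_curve a b hb m E F G u₁ v₁ u₂ v₂ s1 s2 s3 s4 q1 q2 q3 q4 h1 h2 h3

end Vale.Agent.Lib.P205
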