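import Mathlib

namespace Vale.Agent.Lib.P205

open scoped ContDiff
open MeasureTheory Real Set

/-- The clamp of a real number to the interval `[0, 1/2]`. -/
noncomputable def clampHalf (e : ℝ) : ℝ := max 0 (min e (1 / 2))

theorem clampHalf_mem (e : ℝ) : 0 ≤ clampHalf e ∧ clampHalf e ≤ 1 / 2 := by
  unfold clampHalf
  constructor
  · exact le_max_left _ _
  · exact max_le (by norm_num) (min_le_right _ _)

theorem clampHalf_of_mem {e : ℝ} (h0 : 0 ≤ e) (h1 : e ≤ 1 / 2) : clampHalf e = e := by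
  unfold clampHalf
  rw [min_eq_left h1, max_eq_right h0]

theorem continuous_clampHalf : Continuous clampHalf := by
  unfold clampHalf
  fun_prop

/-- The height function `z0 + e cos (6 u)` stays in `[-1/2, 3/4]`. -/
theorem height_bounds {z₀ e : ℝ} (hz0 : 0 ≤ z₀) (hz1 : z₀ ≤ 1 / 4) (he0 : 0 ≤ e)
    (he1 : e ≤ 1 / 2) (u : ℝ) :
    7 / 16 ≤ 1 - (z₀ + e * Real.cos (6 * u)) ^ 2 ∧ 1 - (z₀ + e * Real.cos (6 * u)) ^ 2 ≤ 1 := by
  have hc1 := Real.cos_le_one (6 * u)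
  have hc2 := Real.neg_one_le_cos (6 * u)
  have h1 : z₀ + e * Real.cos (6 * u) ≤ 3 / 4 := by nlinarith
  have h2 : -(1 / 2) ≤ z₀ + e * Real.cos (6 * u) := by nlinarith
  constructor
  · nlinarith
  · nlinarith [sq_nonneg (z₀ + e * Real.cos (6 * u))]

/-- The speed of the lap `u ↦ (height z0 + e cos (6 u), longitude u)` on the unit sphere. -/
noncomputable def lapSpeed (z₀ e u : ℝ) : ℝ :=
  Real.sqrt ((e * 6 * Real.sin (6 * u)) ^ 2 / (1 - (z₀ + e * Real.cos (6 * u)) ^ 2) +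
    (1 - (z₀ + e * Real.cos (6 * u)) ^ 2))

theorem lapSpeed_sq {z₀ e : ℝ} (hz0 : 0 ≤ z₀) (hz1 : z₀ ≤ 1 / 4) (he0 : 0 ≤ e)
    (he1 : e ≤ 1 / 2) (u : ℝ) :
    lapSpeed z₀ e u ^ 2 = (e * 6 * Real.sin (6 * u)) ^ 2 / (1 - (z₀ + e * Real.cos (6 * u)) ^ 2) +
      (1 - (z₀ + e * Real.cos (6 * u)) ^ 2) := by
  have hb := height_bounds hz0 hz1 he0 he1 u
  unfold lapSpeed
  rw [Real.sq_sqrt]
  have : 0 ≤ (e * 6 * Real.sin (6 * u)) ^ 2 / (1 - (z₀ + e * Real.cos (6 * u)) ^ 2) :=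
    div_nonneg (sq_nonneg _) (by linarith [hb.1])
  linarith [hb.1]

theorem lapSpeed_lower {z₀ e : ℝ} (hz0 : 0 ≤ z₀) (hz1 : z₀ ≤ 1 / 4) (he0 : 0 ≤ e)
    (he1 : e ≤ 1 / 2) (u : ℝ) : 1 / 2 ≤ lapSpeed z₀ e u := by
  have hb := height_bounds hz0 hz1 he0 he1 u
  have hsq := lapSpeed_sq hz0 hz1 he0 he1 u
  have h0 : 0 ≤ lapSpeed z₀ e u := Real.sqrt_nonneg _
  have : 0 ≤ (e * 6 * Real.sin (6 * u)) ^ 2 / (1 - (z₀ + e * Real.cos (6 * u)) ^ 2) :=
    div_nonneg (sq_nonneg _) (by linarith [hb.1])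
  nlinarith

theorem contDiff_lapSpeed {z₀ e : ℝ} (hz0 : 0 ≤ z₀) (hz1 : z₀ ≤ 1 / 4) (he0 : 0 ≤ e)
    (he1 : e ≤ 1 / 2) : ContDiff ℝ ∞ (lapSpeed z₀ e) := by
  unfold lapSpeed
  have hne : ∀ u : ℝ, 1 - (z₀ + e * Real.cos (6 * u)) ^ 2 ≠ 0 := fun u =>
    (lt_of_lt_of_le (by norm_num) (height_bounds hz0 hz1 he0 he1 u).1).ne'
  have h1 : ContDiff ℝ ∞ fun u : ℝ => 1 - (z₀ + e * Real.cos (6 * u)) ^ 2 := by fun_prop
  have h2 : ContDiff ℝ ∞ fun u : ℝ => (e * 6 * Real.sin (6 * u)) ^ 2 := by fun_prop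
  have h3 : ContDiff ℝ ∞ fun u : ℝ =>
      (e * 6 * Real.sin (6 * u)) ^ 2 / (1 - (z₀ + e * Real.cos (6 * u)) ^ 2) +
        (1 - (z₀ + e * Real.cos (6 * u)) ^ 2) := (h2.div h1 hne).add h1
  refine h3.sqrt fun u => ?_
  have hb := height_bounds hz0 hz1 he0 he1 u
  have : 0 ≤ (e * 6 * Real.sin (6 * u)) ^ 2 / (1 - (z₀ + e * Real.cos (6 * u)) ^ 2) :=
    div_nonneg (sq_nonneg _) (by linarith [hb.1])
  have hpos : 0 < (e * 6 * Real.sin (6 * u)) ^ 2 / (1 - (z₀ + e * Real.cos (6 * u)) ^ 2) +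
      (1 - (z₀ + e * Real.cos (6 * u)) ^ 2) := by linarith [hb.1]
  exact hpos.ne'

theorem lapSpeed_periodic (z₀ e : ℝ) : Function.Periodic (lapSpeed z₀ e) (2 * π) := by
  intro u
  unfold lapSpeed
  have h : 6 * (u + 2 * π) = 6 * u + (6 : ℕ) * (2 * π) := by push_cast; ring
  rw [h, Real.sin_add_nat_mul_two_pi, Real.cos_add_nat_mul_two_pi]

theorem integral_sin_six_sq : ∫ u in (0 : ℝ)..2 * π, Real.sin (6 * u) ^ 2 = π := by
  have h1 : ∀ u : ℝ, Real.sin (6 * u) ^ 2 = 1 / 2 - Real.cos (12 * u) / 2 := by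
    intro u
    have := Real.cos_sq_add_sin_sq (6 * u)
    have h2 : Real.cos (12 * u) = 2 * Real.cos (6 * u) ^ 2 - 1 := by
      rw [← Real.cos_two_mul]; ring_nf
    linarith
  simp_rw [h1]
  rw [intervalIntegral.integral_sub (Continuous.intervalIntegrable (by fun_prop) _ _)
    (Continuous.intervalIntegrable (by fun_prop) _ _)]
  have h4 : ∫ u in (0 : ℝ)..2 * π, Real.cos (12 * u) / 2 = 0 := by
    rw [intervalIntegral.integral_div, intervalIntegral.integral_comp_mul_left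
      (fun x => Real.cos x) (by norm_num : (12 : ℝ) ≠ 0)]
    have h3 : Real.sin (12 * (2 * π)) = 0 := by
      have : (12 : ℝ) * (2 * π) = (24 : ℕ) * π := by push_cast; ring
      rw [this, Real.sin_nat_mul_pi]
    simp [integral_cos, h3]
  rw [h4, intervalIntegral.integral_const, smul_eq_mul]
  ring

/-- The lap length as a function of the amplitude takes every value between `pi` and
`9 pi / 8`: for some amplitude `e` in `[0, 1/2]` half the integral of the speed over one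
period equals `t`. -/
theorem exists_lap (z₀ t : ℝ) (hz0 : 0 ≤ z₀) (hz1 : z₀ ≤ 1 / 4) (ht0 : π ≤ t)
    (ht1 : t ≤ 9 * π / 8) :
    ∃ e : ℝ, 0 ≤ e ∧ e ≤ 1 / 2 ∧ (∫ u in (0 : ℝ)..2 * π, lapSpeed z₀ e u) / 2 = t := by
  set L : ℝ → ℝ := fun e => (∫ u in (0 : ℝ)..2 * π, lapSpeed z₀ (clampHalf e) u) / 2 with hL
  have hcont : Continuous L := by
    have hunc : Continuous (Function.uncurry fun (e : ℝ) (u : ℝ) => lapSpeed z₀ (clampHalf e) u) := by
      unfold lapSpeed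
      have hne : ∀ p : ℝ × ℝ, 1 - (z₀ + clampHalf p.1 * Real.cos (6 * p.2)) ^ 2 ≠ 0 := fun p =>
        (lt_of_lt_of_le (by norm_num) (height_bounds hz0 hz1 (clampHalf_mem p.1).1
          (clampHalf_mem p.1).2 p.2).1).ne'
      have hc : Continuous fun p : ℝ × ℝ => clampHalf p.1 := continuous_clampHalf.comp continuous_fst
      have h1 : Continuous fun p : ℝ × ℝ => 1 - (z₀ + clampHalf p.1 * Real.cos (6 * p.2)) ^ 2 := by
        fun_prop
      have h2 : Continuous fun p : ℝ × ℝ => (clampHalf p.1 * 6 * Real.sin (6 * p.2)) ^ 2 := by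
        fun_prop
      exact ((h2.div h1 hne).add h1).sqrt
    exact (intervalIntegral.continuous_parametric_intervalIntegral_of_continuous' hunc 0
      (2 * π)).div_const 2
  have h0 : L 0 ≤ t := by
    have hc0 : clampHalf 0 = 0 := clampHalf_of_mem le_rfl (by norm_num)
    simp only [hL, hc0]
    have hle : ∀ u ∈ Set.Icc (0 : ℝ) (2 * π), lapSpeed z₀ 0 u ≤ 1 := by
      intro u _
      unfold lapSpeed
      rw [Real.sqrt_le_left (by norm_num : (0 : ℝ) ≤ 1)]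
      simp only [zero_mul, ne_eq, OfNat.ofNat_ne_zero, not_false_eq_true, zero_pow, zero_div,
        zero_add, add_zero]
      nlinarith [sq_nonneg z₀]
    have hint : IntervalIntegrable (lapSpeed z₀ 0) volume 0 (2 * π) :=
      (contDiff_lapSpeed hz0 hz1 le_rfl (by norm_num)).continuous.intervalIntegrable _ _
    have hmono := intervalIntegral.integral_mono_on (by positivity : (0 : ℝ) ≤ 2 * π) hint
      (intervalIntegrable_const (c := (1 : ℝ))) hle
    rw [intervalIntegral.integral_const, smul_eq_mul] at hmono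
    linarith
  have h1 : t ≤ L (1 / 2) := by
    have hc1 : clampHalf (1 / 2) = 1 / 2 := clampHalf_of_mem (by norm_num) le_rfl
    simp only [hL, hc1]
    have hge : ∀ u ∈ Set.Icc (0 : ℝ) (2 * π), 3 * Real.sin (6 * u) ^ 2 ≤ lapSpeed z₀ (1 / 2) u := by
      intro u _
      have hb := height_bounds hz0 hz1 (by norm_num : (0 : ℝ) ≤ 1 / 2) le_rfl u
      have hsq := lapSpeed_sq hz0 hz1 (by norm_num : (0 : ℝ) ≤ 1 / 2) le_rfl u
      have hpos : 0 ≤ lapSpeed z₀ (1 / 2) u := Real.sqrt_nonneg _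
      have hs1 : Real.sin (6 * u) ^ 2 ≤ 1 := Real.sin_sq_le_one _
      have hs0 : 0 ≤ Real.sin (6 * u) ^ 2 := sq_nonneg _
      have hdiv : (1 / 2 * 6 * Real.sin (6 * u)) ^ 2 ≤
          (1 / 2 * 6 * Real.sin (6 * u)) ^ 2 / (1 - (z₀ + 1 / 2 * Real.cos (6 * u)) ^ 2) := by
        rw [le_div_iff₀ (by linarith [hb.1])]
        nlinarith [sq_nonneg (1 / 2 * 6 * Real.sin (6 * u))]
      have hlow : (3 * Real.sin (6 * u) ^ 2) ^ 2 ≤ lapSpeed z₀ (1 / 2) u ^ 2 := by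
        rw [hsq]
        nlinarith
      exact (abs_le_of_sq_le_sq' hlow hpos).2
    have hint : IntervalIntegrable (lapSpeed z₀ (1 / 2)) volume 0 (2 * π) :=
      (contDiff_lapSpeed hz0 hz1 (by norm_num) le_rfl).continuous.intervalIntegrable _ _
    have hint2 : IntervalIntegrable (fun u : ℝ => 3 * Real.sin (6 * u) ^ 2) volume 0 (2 * π) :=
      Continuous.intervalIntegrable (by fun_prop) _ _
    have hmono := intervalIntegral.integral_mono_on (by positivity : (0 : ℝ) ≤ 2 * π) hint2 hint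
      hge
    rw [intervalIntegral.integral_const_mul, integral_sin_six_sq] at hmono
    linarith
  obtain ⟨e, he, hLe⟩ := intermediate_value_Icc (by norm_num : (0 : ℝ) ≤ 1 / 2)
    hcont.continuousOn ⟨h0, h1⟩
  refine ⟨e, he.1, he.2, ?_⟩
  have : clampHalf e = e := clampHalf_of_mem he.1 he.2
  simp only [hL, this] at hLe
  exact hLe

end Vale.Agent.Lib.P205
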