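import Mathlib

namespace Vale.Agent.Lib.P205

open scoped ContDiff
open MeasureTheory

/-- A continuous periodic real function is bounded above. -/
theorem periodic_bddAbove {r : ℝ → ℝ} {a : ℝ} (ha : 0 < a) (hr : Continuous r)
    (hper : Function.Periodic r a) : ∃ B : ℝ, ∀ x, r x ≤ B := by
  obtain ⟨B, hB⟩ := (isCompact_Icc (a := (0 : ℝ)) (b := a)).bddAbove_image hr.continuousOn
  refine ⟨B, fun x => ?_⟩
  obtain ⟨y, hy, hxy⟩ := hper.exists_mem_Ico₀ ha x
  rw [hxy]
  exact hB ⟨y, ⟨hy.1, hy.2.le⟩, rfl⟩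

/-- Derivative of a product of a function of the first and a function of the second variable. -/
theorem hasFDerivAt_mul_fst_snd {f g : ℝ → ℝ} {f' g' : ℝ} (p : ℝ × ℝ)
    (hf : HasDerivAt f f' p.1) (hg : HasDerivAt g g' p.2) :
    HasFDerivAt (fun q : ℝ × ℝ => f q.1 * g q.2)
      ((f' * g p.2) • ContinuousLinearMap.fst ℝ ℝ ℝ +
        (f p.1 * g') • ContinuousLinearMap.snd ℝ ℝ ℝ) p := by
  have h1 : HasFDerivAt (fun q : ℝ × ℝ => f q.1) (f' • ContinuousLinearMap.fst ℝ ℝ ℝ) p :=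
    hf.comp_hasFDerivAt p hasFDerivAt_fst
  have h2 : HasFDerivAt (fun q : ℝ × ℝ => g q.2) (g' • ContinuousLinearMap.snd ℝ ℝ ℝ) p :=
    hg.comp_hasFDerivAt p hasFDerivAt_snd
  have h3 : HasFDerivAt (fun q : ℝ × ℝ => f q.1 * g q.2) _ p := h1.mul h2
  refine h3.congr_fderiv ?_
  ext <;> simp <;> ring

end Vale.Agent.Lib.P205

namespace Vale.Agent.Lib.P205

open scoped ContDiff
open MeasureTheory Real

/-- The profile data of the immersion: a frequency `om = 2 pi m / b`, the function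
`h = sqrt G`, the speed `s = sqrt (E - (h'/om)^2)`, its primitive `Phi`, and the radius
`R` with `Phi (x + a) = Phi x + 2 pi R`. -/
theorem exists_profile (a b : ℝ) (ha : 0 < a) (hb : 0 < b) (E G : ℝ → ℝ)
    (hE : ContDiff ℝ ∞ E) (hG : ContDiff ℝ ∞ G) (hEpos : ∀ x, 0 < E x)
    (hGpos : ∀ x, 0 < G x) (hEper : ∀ x, E (x + a) = E x) (hGper : ∀ x, G (x + a) = G x) :
    ∃ (m : ℕ) (h s Φ : ℝ → ℝ) (R : ℝ), 0 < m ∧ 0 < R ∧ ContDiff ℝ ∞ h ∧ ContDiff ℝ ∞ s ∧
      ContDiff ℝ ∞ Φ ∧ (∀ x, h x ^ 2 = G x) ∧ (∀ x, h (x + a) = h x) ∧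
      (∀ x, s x ^ 2 = E x - (deriv h x / (2 * π * m / b)) ^ 2) ∧
      (∀ x, HasDerivAt Φ (s x) x) ∧ (∀ x, Φ (x + a) = Φ x + 2 * π * R) := by
  -- the function h = sqrt G
  set h : ℝ → ℝ := fun x => Real.sqrt (G x) with hh
  have hhsm : ContDiff ℝ ∞ h := hG.sqrt (fun x => (hGpos x).ne')
  have hhsq : ∀ x, h x ^ 2 = G x := fun x => Real.sq_sqrt (hGpos x).le
  have hhper : ∀ x, h (x + a) = h x := fun x => by simp only [hh, hGper x]
  have hdsm : ContDiff ℝ ∞ (deriv h) := (contDiff_infty_iff_deriv.mp hhsm).2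
  have hdper : ∀ x, deriv h (x + a) = deriv h x := by
    intro x
    rw [← deriv_comp_add_const]
    congr 1
    funext y
    exact hhper y
  -- bound for (h')^2 / E
  have hrcont : Continuous fun x => deriv h x ^ 2 / E x :=
    (hdsm.continuous.pow 2).div hE.continuous (fun x => (hEpos x).ne')
  have hrper : Function.Periodic (fun x => deriv h x ^ 2 / E x) a := by
    intro x
    simp only [hdper x, hEper x]
  obtain ⟨B, hB⟩ := periodic_bddAbove ha hrcont hrper
  have hB0 : 0 ≤ B := le_trans (div_nonneg (sq_nonneg _) (hEpos 0).le) (hB 0)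
  -- the frequency
  obtain ⟨m, hm⟩ := exists_nat_gt ((B + 1) * b / (2 * π))
  have hmpos : 0 < m := by
    have : (0 : ℝ) < (B + 1) * b / (2 * π) := by positivity
    exact_mod_cast this.trans hm
  set om : ℝ := 2 * π * m / b with hom
  have hom1 : B + 1 < om := by
    rw [hom, lt_div_iff₀ hb]
    have := (div_lt_iff₀ (by positivity : (0 : ℝ) < 2 * π)).mp hm
    linarith
  have hompos : 0 < om := by linarith
  have hom2 : B < om ^ 2 := by nlinarith
  have hpos : ∀ x, 0 < E x - (deriv h x / om) ^ 2 := by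
    intro x
    have h1 := hB x
    rw [div_le_iff₀ (hEpos x)] at h1
    have h2 : (deriv h x / om) ^ 2 = deriv h x ^ 2 / om ^ 2 := by rw [div_pow]
    rw [h2, sub_pos, div_lt_iff₀ (by positivity)]
    nlinarith [hEpos x]
  -- the speed s
  set s : ℝ → ℝ := fun x => Real.sqrt (E x - (deriv h x / om) ^ 2) with hs
  have hssm : ContDiff ℝ ∞ s :=
    (hE.sub ((hdsm.div_const om).pow 2)).sqrt (fun x => (hpos x).ne')
  have hssq : ∀ x, s x ^ 2 = E x - (deriv h x / om) ^ 2 := fun x => Real.sq_sqrt (hpos x).le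
  have hspos : ∀ x, 0 < s x := fun x => Real.sqrt_pos.mpr (hpos x)
  have hsper : Function.Periodic s a := by
    intro x
    simp only [hs, hdper x, hEper x]
  -- the primitive
  set Φ : ℝ → ℝ := fun x => ∫ t in (0 : ℝ)..x, s t with hΦ
  have hΦd : ∀ x, HasDerivAt Φ (s x) x := fun x =>
    intervalIntegral.integral_hasDerivAt_right (hssm.continuous.intervalIntegrable _ _)
      (hssm.continuous.stronglyMeasurableAtFilter _ _) hssm.continuous.continuousAt
  have hΦsm : ContDiff ℝ ∞ Φ := by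
    rw [contDiff_infty_iff_deriv]
    refine ⟨fun x => (hΦd x).differentiableAt, ?_⟩
    have : deriv Φ = s := funext fun x => (hΦd x).deriv
    rw [this]
    exact hssm
  have hSpos : 0 < ∫ t in (0 : ℝ)..a, s t :=
    intervalIntegral.intervalIntegral_pos_of_pos_on (hssm.continuous.intervalIntegrable _ _)
      (fun x _ => hspos x) ha
  have hΦper : ∀ x, Φ (x + a) = Φ x + ∫ t in (0 : ℝ)..a, s t := by
    intro x
    have h1 : (∫ t in (0 : ℝ)..x, s t) + ∫ t in x..x + a, s t = ∫ t in (0 : ℝ)..x + a, s t :=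
      intervalIntegral.integral_add_adjacent_intervals
        (hssm.continuous.intervalIntegrable _ _) (hssm.continuous.intervalIntegrable _ _)
    have h2 : ∫ t in x..x + a, s t = ∫ t in (0 : ℝ)..0 + a, s t :=
      hsper.intervalIntegral_add_eq x 0
    rw [zero_add] at h2
    simp only [hΦ]
    rw [← h1, h2]
  refine ⟨m, h, s, Φ, (∫ t in (0 : ℝ)..a, s t) / (2 * π), hmpos, by positivity, hhsm, hssm,
    hΦsm, hhsq, hhper, hssq, hΦd, ?_⟩
  intro x
  rw [hΦper x]
  field_simp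

end Vale.Agent.Lib.P205

namespace Vale.Agent.Lib.P205

open scoped ContDiff
open MeasureTheory Real

/-- Every metric `E(x) dx^2 + G(x) dy^2` on the torus `R^2 / (aZ x bZ)` is induced by a
smooth doubly periodic map into Euclidean four-space. -/
theorem warped_torus (a b : ℝ) (ha : 0 < a) (hb : 0 < b) (E G : ℝ → ℝ)
    (hE : ContDiff ℝ ∞ E) (hG : ContDiff ℝ ∞ G) (hEpos : ∀ x, 0 < E x)
    (hGpos : ∀ x, 0 < G x) (hEper : ∀ x, E (x + a) = E x) (hGper : ∀ x, G (x + a) = G x) :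
    ∃ F : ℝ × ℝ → EuclideanSpace ℝ (Fin 4), ContDiff ℝ ∞ F ∧
      (∀ x y, F (x + a, y) = F (x, y)) ∧ (∀ x y, F (x, y + b) = F (x, y)) ∧
      ∀ p v w : ℝ × ℝ, inner ℝ (fderiv ℝ F p v) (fderiv ℝ F p w) =
        E p.1 * v.1 * w.1 + G p.1 * v.2 * w.2 := by
  obtain ⟨m, h, s, Φ, R, hm, hR, hhsm, hssm, hΦsm, hhsq, hhper, hssq, hΦd, hΦper⟩ :=
    exists_profile a b ha hb E G hE hG hEpos hGpos hEper hGper
  set om : ℝ := 2 * π * m / b with hom
  have hompos : 0 < om := by
    have : (0 : ℝ) < m := by exact_mod_cast hm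
    positivity
  have hRne : R ≠ 0 := hR.ne'
  have homne : om ≠ 0 := hompos.ne'
  set F : ℝ × ℝ → EuclideanSpace ℝ (Fin 4) := fun q =>
    WithLp.toLp 2 ![h q.1 * (Real.cos (om * q.2) / om), h q.1 * (Real.sin (om * q.2) / om),
      R * Real.cos (Φ q.1 / R), R * Real.sin (Φ q.1 / R)] with hF
  have hFsm : ContDiff ℝ ∞ F := by
    rw [contDiff_euclidean]
    intro i
    fin_cases i
    · change ContDiff ℝ ∞ fun q : ℝ × ℝ => h q.1 * (Real.cos (om * q.2) / om)
      fun_prop
    · change ContDiff ℝ ∞ fun q : ℝ × ℝ => h q.1 * (Real.sin (om * q.2) / om)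
      fun_prop
    · change ContDiff ℝ ∞ fun q : ℝ × ℝ => R * Real.cos (Φ q.1 / R)
      fun_prop
    · change ContDiff ℝ ∞ fun q : ℝ × ℝ => R * Real.sin (Φ q.1 / R)
      fun_prop
  refine ⟨F, hFsm, ?_, ?_, ?_⟩
  · intro x y
    have h1 : Φ (x + a) / R = Φ x / R + 2 * π := by
      rw [hΦper x]; field_simp
    simp only [hF, hhper x, h1, Real.cos_add_two_pi, Real.sin_add_two_pi]
  · intro x y
    have h1 : om * (y + b) = om * y + (m : ℝ) * (2 * π) := by
      rw [hom]; field_simp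
    simp only [hF, h1, Real.cos_add_nat_mul_two_pi, Real.sin_add_nat_mul_two_pi]
  · intro p v w
    have hdiff : DifferentiableAt ℝ F p := (hFsm.differentiable (by simp)).differentiableAt
    have key : ∀ (i : Fin 4) (L : ℝ × ℝ →L[ℝ] ℝ), HasFDerivAt (fun q => F q i) L p →
        ∀ u, (fderiv ℝ F p u) i = L u := by
      intro i L hL u
      have h0 := (ContinuousLinearMap.hasFDerivAt (PiLp.proj 2 (fun _ : Fin 4 => ℝ) i)
        (x := F p)).comp p hdiff.hasFDerivAt
      have h1 : HasFDerivAt (fun q => F q i)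
          ((PiLp.proj 2 (fun _ : Fin 4 => ℝ) i).comp (fderiv ℝ F p)) p := h0
      have h2 := h1.unique hL
      exact congrArg (fun T : ℝ × ℝ →L[ℝ] ℝ => T u) h2
    have hh' : HasDerivAt h (deriv h p.1) p.1 :=
      ((hhsm.differentiable (by simp)).differentiableAt).hasDerivAt
    have hcos : HasDerivAt (fun y => Real.cos (om * y) / om) (-Real.sin (om * p.2)) p.2 := by
      have := (((hasDerivAt_id p.2).const_mul om).cos).div_const om
      refine this.congr_deriv ?_
      simp only [id]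
      field_simp
    have hsin : HasDerivAt (fun y => Real.sin (om * y) / om) (Real.cos (om * p.2)) p.2 := by
      have := (((hasDerivAt_id p.2).const_mul om).sin).div_const om
      refine this.congr_deriv ?_
      simp only [id]
      field_simp
    have hP : HasDerivAt (fun x => R * Real.cos (Φ x / R))
        (-(Real.sin (Φ p.1 / R) * s p.1)) p.1 := by
      have := (((hΦd p.1).div_const R).cos).const_mul R
      refine this.congr_deriv ?_
      field_simp
    have hQ : HasDerivAt (fun x => R * Real.sin (Φ x / R))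
        (Real.cos (Φ p.1 / R) * s p.1) p.1 := by
      have := (((hΦd p.1).div_const R).sin).const_mul R
      refine this.congr_deriv ?_
      field_simp
    have d0 := hasFDerivAt_mul_fst_snd p hh' hcos
    have d1 := hasFDerivAt_mul_fst_snd p hh' hsin
    have d2 : HasFDerivAt (fun q : ℝ × ℝ => R * Real.cos (Φ q.1 / R))
        ((-(Real.sin (Φ p.1 / R) * s p.1)) • ContinuousLinearMap.fst ℝ ℝ ℝ) p :=
      hP.comp_hasFDerivAt p hasFDerivAt_fst
    have d3 : HasFDerivAt (fun q : ℝ × ℝ => R * Real.sin (Φ q.1 / R))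
        ((Real.cos (Φ p.1 / R) * s p.1) • ContinuousLinearMap.fst ℝ ℝ ℝ) p :=
      hQ.comp_hasFDerivAt p hasFDerivAt_fst
    rw [PiLp.inner_apply, Fin.sum_univ_four]
    rw [key 0 _ d0 v, key 0 _ d0 w, key 1 _ d1 v, key 1 _ d1 w, key 2 _ d2 v, key 2 _ d2 w,
      key 3 _ d3 v, key 3 _ d3 w]
    simp only [add_apply, smul_apply,
      ContinuousLinearMap.coe_fst', ContinuousLinearMap.coe_snd', smul_eq_mul,
      RCLike.inner_apply, conj_trivial]
    have e1 := hssq p.1
    have e2 := hhsq p.1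
    have e3 := Real.cos_sq_add_sin_sq (om * p.2)
    have e4 := Real.cos_sq_add_sin_sq (Φ p.1 / R)
    linear_combination (deriv h p.1 ^ 2 * om⁻¹ ^ 2 * v.1 * w.1 + h p.1 ^ 2 * v.2 * w.2) * e3
      + s p.1 ^ 2 * v.1 * w.1 * e4 + v.1 * w.1 * e1 + v.2 * w.2 * e2

end Vale.Agent.Lib.P205
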